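import Vale.Agent.Lib.P227.PLC.PL3

open MeasureTheory Set
open scoped ENNReal

namespace Vale.Agent.Lib.P227.PLC

variable {V : Type*} [Fintype V]

/-- **Prekopa-Leindler inequality** on `V → ℝ`, `V` a finite type. -/
theorem prekopa_leindler {f g h : (V → ℝ) → ℝ≥0∞}
    (hf : Measurable f) (hg : Measurable g) (hh : Measurable h) {θ : ℝ} (h0 : 0 < θ) (h1 : θ < 1)
    (H : ∀ x y, f x ^ θ * g y ^ (1 - θ) ≤ h (θ • x + (1 - θ) • y)) :
    (∫⁻ x, f x) ^ θ * (∫⁻ x, g x) ^ (1 - θ) ≤ ∫⁻ x, h x := by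
  classical
  let e : Fin (Fintype.card V) ≃ V := (Fintype.equivFin V).symm
  let Φ := MeasurableEquiv.piCongrLeft (fun _ : V => ℝ) e
  have mp : MeasurePreserving Φ := volume_measurePreserving_piCongrLeft (fun _ : V => ℝ) e
  have hlin : ∀ (x y : Fin (Fintype.card V) → ℝ),
      Φ (θ • x + (1 - θ) • y) = θ • Φ x + (1 - θ) • Φ y := by
    intro x y
    ext j
    obtain ⟨i, rfl⟩ := e.surjective j
    simp [Φ, MeasurableEquiv.coe_piCongrLeft, Equiv.piCongrLeft_apply_apply]
  have red : ∀ F : (V → ℝ) → ℝ≥0∞, Measurable F → ∫⁻ x, F x = ∫⁻ x, F (Φ x) := by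
    intro F hF
    exact (mp.lintegral_comp hF).symm
  rw [red f hf, red g hg, red h hh]
  refine prekopa_leindler_fin _ (hf.comp Φ.measurable) (hg.comp Φ.measurable)
    (hh.comp Φ.measurable) h0 h1 ?_
  intro x y
  simp only [Function.comp_apply]
  rw [hlin]
  exact H _ _

/-- Multiplicative **Brunn-Minkowski inequality** on `V → ℝ`. -/
theorem brunn_minkowski_mul {A B C : Set (V → ℝ)}
    (hA : MeasurableSet A) (hB : MeasurableSet B) (hC : MeasurableSet C)
    {θ : ℝ} (h0 : 0 < θ) (h1 : θ < 1)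
    (H : ∀ x ∈ A, ∀ y ∈ B, θ • x + (1 - θ) • y ∈ C) :
    volume A ^ θ * volume B ^ (1 - θ) ≤ volume C := by
  have h1' : 0 < 1 - θ := by linarith
  have key := prekopa_leindler (f := indicator A 1) (g := indicator B 1) (h := indicator C 1)
    (measurable_one.indicator hA) (measurable_one.indicator hB) (measurable_one.indicator hC)
    h0 h1 (by
      intro x y
      by_cases hx : x ∈ A
      · by_cases hy : y ∈ B
        · have := H x hx y hy
          simp [hx, hy, this]
        · simp [hy, h1']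
      · simp [hx, h0])
  simpa [lintegral_indicator_one, hA, hB, hC] using key

end Vale.Agent.Lib.P227.PLC
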