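import Mathlib

open MeasureTheory Set
open scoped ENNReal

namespace Vale.Agent.Lib.P227.PLC

/-- Volume of the image of a set under `x ↦ c * x + d`, `c > 0`. -/
lemma volume_image_mul_add (A : Set ℝ) {c : ℝ} (hc : 0 < c) (d : ℝ) :
    volume ((fun x => c * x + d) '' A) = ENNReal.ofReal c * volume A := by
  have h1 : (fun x => c * x + d) '' A = (fun z => c⁻¹ * (z + -d)) ⁻¹' A := by
    ext z
    simp only [mem_image, mem_preimage]
    constructor
    · rintro ⟨x, hx, rfl⟩
      have : c⁻¹ * (c * x + d + -d) = x := by field_simp; ring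
      rw [this]; exact hx
    · intro hz
      refine ⟨_, hz, ?_⟩
      field_simp; ring
  rw [h1]
  have h2 : (fun z => c⁻¹ * (z + -d)) ⁻¹' A = (fun z => z + -d) ⁻¹' ((fun z => c⁻¹ * z) ⁻¹' A) := rfl
  rw [h2, measure_preimage_add_right, Real.volume_preimage_mul_left (inv_ne_zero hc.ne')]
  simp [abs_of_pos hc]

/-- One-dimensional Brunn-Minkowski for compact sets. -/
lemma bm1d_compact {A B : Set ℝ} (hA : IsCompact A) (hB : IsCompact B)
    (hAne : A.Nonempty) (hBne : B.Nonempty) {θ : ℝ} (h0 : 0 < θ) (h1 : θ < 1)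
    {C : Set ℝ} (hC : MeasurableSet C)
    (hsub : ∀ x ∈ A, ∀ y ∈ B, θ * x + (1 - θ) * y ∈ C) :
    ENNReal.ofReal θ * volume A + ENNReal.ofReal (1 - θ) * volume B ≤ volume C := by
  have ha := hA.sSup_mem hAne
  have hb := hB.sInf_mem hBne
  set a := sSup A
  set b := sInf B
  have hAa : ∀ x ∈ A, x ≤ a := fun x hx => le_csSup hA.bddAbove hx
  have hBb : ∀ y ∈ B, b ≤ y := fun y hy => csInf_le hB.bddBelow hy
  have h1' : 0 < 1 - θ := by linarith
  set c := θ * a + (1 - θ) * b
  set T1 := (fun x => θ * x + (1 - θ) * b) '' A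
  set T2 := (fun y => (1 - θ) * y + θ * a) '' B
  have hT1 : volume T1 = ENNReal.ofReal θ * volume A := volume_image_mul_add A h0 _
  have hT2 : volume T2 = ENNReal.ofReal (1 - θ) * volume B := volume_image_mul_add B h1' _
  have hT1sub : T1 ⊆ C ∩ Iic c := by
    rintro _ ⟨x, hx, rfl⟩
    refine ⟨hsub x hx b hb, ?_⟩
    have := hAa x hx
    simp only [mem_Iic, c]
    nlinarith
  have hT2sub : T2 \ {c} ⊆ C \ Iic c := by
    rintro _ ⟨⟨y, hy, rfl⟩, hne⟩
    refine ⟨?_, ?_⟩
    · have := hsub a ha y hy
      simp only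
      rwa [add_comm]
    · simp only [mem_Iic, not_le]
      have h2 := hBb y hy
      simp only [mem_singleton_iff] at hne
      have h3 : c ≤ (1 - θ) * y + θ * a := by simp only [c]; nlinarith
      exact lt_of_le_of_ne h3 (Ne.symm hne)
  calc ENNReal.ofReal θ * volume A + ENNReal.ofReal (1 - θ) * volume B
      = volume T1 + volume (T2 \ {c}) := by
        rw [hT1, measure_sdiff_null (by simp), hT2]
    _ ≤ volume (C ∩ Iic c) + volume (C \ Iic c) :=
        add_le_add (measure_mono hT1sub) (measure_mono hT2sub)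
    _ = volume C := measure_inter_add_sdiff C measurableSet_Iic

lemma ennreal_add_le_of_forall_lt {a d e : ℝ≥0∞} (h0 : d ≤ e) (h : ∀ r < a, r + d ≤ e) :
    a + d ≤ e := by
  by_cases hd : d = ∞
  · subst hd
    have : e = ∞ := top_le_iff.mp h0
    simp [this]
  · have h1 : a ≤ e - d := by
      refine le_of_forall_lt_imp_le_of_dense fun r hr => ?_
      exact ENNReal.le_sub_of_add_le_right hd (h r hr)
    calc a + d ≤ (e - d) + d := by gcongr
      _ = e := tsub_add_cancel_of_le h0

/-- Approximating a scaled measure from inside by compact subsets. -/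
lemma exists_compact_scaled {A : Set ℝ} (hA : MeasurableSet A) {c : ℝ≥0∞} {u : ℝ≥0∞}
    (hu : u < c * volume A) : ∃ K ⊆ A, IsCompact K ∧ u ≤ c * volume K := by
  obtain ⟨r, hr, hur⟩ : ∃ r < volume A, u ≤ c * r := by
    by_contra hcon
    push_neg at hcon
    refine absurd hu (not_lt.mpr ?_)
    refine ENNReal.mul_le_of_forall_lt ?_
    intro p hp q hq
    exact le_trans (mul_le_mul_left hp.le q) (hcon q hq).le
  obtain ⟨K, hKA, hK, hKr⟩ := hA.exists_lt_isCompact hr
  exact ⟨K, hKA, hK, hur.trans (by gcongr)⟩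

/-- One-dimensional Brunn-Minkowski for measurable sets. -/
lemma bm1d {A B : Set ℝ} (hA : MeasurableSet A) (hB : MeasurableSet B)
    (hAne : A.Nonempty) (hBne : B.Nonempty) {θ : ℝ} (h0 : 0 < θ) (h1 : θ < 1)
    {C : Set ℝ} (hC : MeasurableSet C)
    (hsub : ∀ x ∈ A, ∀ y ∈ B, θ * x + (1 - θ) * y ∈ C) :
    ENNReal.ofReal θ * volume A + ENNReal.ofReal (1 - θ) * volume B ≤ volume C := by
  obtain ⟨a0, ha0⟩ := hAne
  obtain ⟨b0, hb0⟩ := hBne
  -- first the case of compact subsets
  have hcomp : ∀ K ⊆ A, IsCompact K → ∀ L ⊆ B, IsCompact L →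
      ENNReal.ofReal θ * volume K + ENNReal.ofReal (1 - θ) * volume L ≤ volume C := by
    intro K hKA hK L hLB hL
    have hK' : IsCompact (insert a0 K) := hK.insert a0
    have hL' : IsCompact (insert b0 L) := hL.insert b0
    have key := bm1d_compact hK' hL' (insert_nonempty _ _) (insert_nonempty _ _) h0 h1 hC
      (by
        intro x hx y hy
        refine hsub x ?_ y ?_
        · rcases hx with rfl | hx
          · exact ha0
          · exact hKA hx
        · rcases hy with rfl | hy
          · exact hb0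
          · exact hLB hy)
    refine le_trans ?_ key
    gcongr
    · exact subset_insert _ _
    · exact subset_insert _ _
  have hstep : ∀ K ⊆ A, IsCompact K →
      ENNReal.ofReal θ * volume K + ENNReal.ofReal (1 - θ) * volume B ≤ volume C := by
    intro K hKA hK
    rw [add_comm]
    refine ennreal_add_le_of_forall_lt ?_ ?_
    · have := hcomp K hKA hK ∅ (empty_subset _) isCompact_empty
      simpa using this
    · intro r hr
      obtain ⟨L, hLB, hL, hrL⟩ := exists_compact_scaled hB hr
      rw [add_comm]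
      exact le_trans (by gcongr) (hcomp K hKA hK L hLB hL)
  refine ennreal_add_le_of_forall_lt ?_ ?_
  · have := hstep ∅ (empty_subset _) isCompact_empty
    simpa using this
  · intro r hr
    obtain ⟨K, hKA, hK, hrK⟩ := exists_compact_scaled hA hr
    exact le_trans (by gcongr) (hstep K hKA hK)

end Vale.Agent.Lib.P227.PLC
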