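import Vale.Agent.Lib.P227.PLC.PL1

open MeasureTheory Set
open scoped ENNReal

namespace Vale.Agent.Lib.P227.PLC

/-- Layer cake formula for extended nonnegative functions. -/
lemma layer_cake_ennreal {α : Type*} [MeasurableSpace α] (μ : Measure α) [SFinite μ]
    {F : α → ℝ≥0∞} (hF : Measurable F) :
    ∫⁻ x, F x ∂μ = ∫⁻ t in Ioi (0 : ℝ), μ {x | ENNReal.ofReal t < F x} := by
  have h1 : ∀ x, F x = ∫⁻ t in Ioi (0:ℝ), indicator {p : α × ℝ | ENNReal.ofReal p.2 < F p.1} 1 (x, t) := by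
    intro x
    have hset : MeasurableSet {t : ℝ | ENNReal.ofReal t < F x} :=
      measurableSet_lt (ENNReal.measurable_ofReal) measurable_const
    have : ∀ t : ℝ, indicator {p : α × ℝ | ENNReal.ofReal p.2 < F p.1} (1 : α × ℝ → ℝ≥0∞) (x, t)
        = indicator {t : ℝ | ENNReal.ofReal t < F x} 1 t := by
      intro t; simp [indicator]
    simp_rw [this]
    rw [lintegral_indicator_one₀ hset.nullMeasurableSet]
    rw [Measure.restrict_apply hset]
    rcases eq_or_ne (F x) ∞ with hx | hx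
    · have : {t : ℝ | ENNReal.ofReal t < F x} ∩ Ioi 0 = Ioi 0 := by
        ext t; simp [hx]
      rw [this, hx]; simp
    · have : {t : ℝ | ENNReal.ofReal t < F x} ∩ Ioi 0 = Ioo 0 (F x).toReal := by
        ext t
        simp only [mem_inter_iff, mem_ofPred_eq, mem_Ioi, mem_Ioo]
        constructor
        · rintro ⟨h, h0⟩
          refine ⟨h0, ?_⟩
          exact (ENNReal.ofReal_lt_iff_lt_toReal h0.le hx).mp h
        · rintro ⟨h0, h⟩
          exact ⟨(ENNReal.ofReal_lt_iff_lt_toReal h0.le hx).mpr h, h0⟩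
      rw [this, Real.volume_Ioo]
      simp [ENNReal.ofReal_toReal hx]
  have hmeas : Measurable (indicator {p : α × ℝ | ENNReal.ofReal p.2 < F p.1} (1 : α × ℝ → ℝ≥0∞)) := by
    refine measurable_one.indicator ?_
    exact measurableSet_lt (ENNReal.measurable_ofReal.comp measurable_snd) (hF.comp measurable_fst)
  calc ∫⁻ x, F x ∂μ
      = ∫⁻ x, ∫⁻ t in Ioi (0:ℝ), indicator {p : α × ℝ | ENNReal.ofReal p.2 < F p.1} 1 (x, t) ∂volume ∂μ := by
        apply lintegral_congr; exact h1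
    _ = ∫⁻ t in Ioi (0:ℝ), ∫⁻ x, indicator {p : α × ℝ | ENNReal.ofReal p.2 < F p.1} 1 (x, t) ∂μ ∂volume := by
        rw [lintegral_lintegral_swap]
        exact hmeas.aemeasurable
    _ = ∫⁻ t in Ioi (0 : ℝ), μ {x | ENNReal.ofReal t < F x} := by
        apply lintegral_congr
        intro t
        have hset : MeasurableSet {x | ENNReal.ofReal t < F x} :=
          measurableSet_lt measurable_const hF
        have : ∀ x : α, indicator {p : α × ℝ | ENNReal.ofReal p.2 < F p.1} (1 : α × ℝ → ℝ≥0∞) (x, t)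
            = indicator {x | ENNReal.ofReal t < F x} 1 x := by
          intro x; simp [indicator]
        simp_rw [this]
        rw [lintegral_indicator_one₀ hset.nullMeasurableSet]

/-- If `F ≤ 1`, the layer cake only sees levels in `(0,1)`. -/
lemma layer_cake_le_one {α : Type*} [MeasurableSpace α] (μ : Measure α) [SFinite μ]
    {F : α → ℝ≥0∞} (hF : Measurable F) (h1 : ∀ x, F x ≤ 1) :
    ∫⁻ x, F x ∂μ = ∫⁻ t in Ioo (0 : ℝ) 1, μ {x | ENNReal.ofReal t < F x} := by
  rw [layer_cake_ennreal μ hF]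
  have hanti : Antitone (fun t : ℝ => μ {x | ENNReal.ofReal t < F x}) := by
    intro s t hst
    apply measure_mono
    intro x hx
    exact lt_of_le_of_lt (ENNReal.ofReal_le_ofReal hst) hx
  have hU : Ioi (0:ℝ) = Ioo 0 1 ∪ Ici 1 := (Ioo_union_Ici_eq_Ioi one_pos).symm
  rw [hU, lintegral_union measurableSet_Ici]
  · have : ∫⁻ t in Ici (1:ℝ), μ {x | ENNReal.ofReal t < F x} = 0 := by
      rw [← lintegral_zero (μ := volume.restrict (Ici (1:ℝ)))]
      apply setLIntegral_congr_fun measurableSet_Ici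
      intro t ht
      have : {x | ENNReal.ofReal t < F x} = ∅ := by
        ext x
        simp only [mem_ofPred_eq, mem_empty_iff_false, iff_false, not_lt]
        refine (h1 x).trans ?_
        simpa using ENNReal.ofReal_le_ofReal (show (1:ℝ) ≤ t from ht)
      simp [this]
    rw [this, add_zero]
  · rw [disjoint_left]
    intro t ht ht'
    exact absurd ht.2 (not_lt.mpr ht')

/-- Normalized one-dimensional Prekopa-Leindler inequality, in additive form. -/
lemma pl1d_normalized {f g h : ℝ → ℝ≥0∞} (hf : Measurable f) (hg : Measurable g) (hh : Measurable h)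
    (hf1 : ∀ x, f x ≤ 1) (hg1 : ∀ x, g x ≤ 1)
    (hfs : ∀ r < (1:ℝ≥0∞), ∃ x, r < f x) (hgs : ∀ r < (1:ℝ≥0∞), ∃ x, r < g x)
    {θ : ℝ} (h0 : 0 < θ) (h1 : θ < 1)
    (H : ∀ x y, f x ^ θ * g y ^ (1 - θ) ≤ h (θ * x + (1 - θ) * y)) :
    ENNReal.ofReal θ * (∫⁻ x, f x) + ENNReal.ofReal (1 - θ) * (∫⁻ x, g x) ≤ ∫⁻ x, h x := by
  have h1' : 0 < 1 - θ := by linarith
  have hantif : Antitone (fun t : ℝ => volume {x | ENNReal.ofReal t < f x}) := by
    intro s t hst
    apply measure_mono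
    intro x hx
    exact lt_of_le_of_lt (ENNReal.ofReal_le_ofReal hst) hx
  have hantig : Antitone (fun t : ℝ => volume {x | ENNReal.ofReal t < g x}) := by
    intro s t hst
    apply measure_mono
    intro x hx
    exact lt_of_le_of_lt (ENNReal.ofReal_le_ofReal hst) hx
  have e1 : ∫⁻ x, f x = ∫⁻ t in Ioo (0:ℝ) 1, volume {x | ENNReal.ofReal t < f x} :=
    layer_cake_le_one volume hf hf1
  have e2 : ∫⁻ x, g x = ∫⁻ t in Ioo (0:ℝ) 1, volume {x | ENNReal.ofReal t < g x} :=
    layer_cake_le_one volume hg hg1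
  have e3 : ∫⁻ x, h x = ∫⁻ t in Ioi (0:ℝ), volume {x | ENNReal.ofReal t < h x} :=
    layer_cake_ennreal volume hh
  rw [e1, e2, e3,
    ← lintegral_const_mul _ hantif.measurable, ← lintegral_const_mul _ hantig.measurable,
    ← lintegral_add_left (hantif.measurable.const_mul _)]
  have hsub : ∫⁻ t in Ioo (0:ℝ) 1, volume {x | ENNReal.ofReal t < h x} ≤
      ∫⁻ t in Ioi (0:ℝ), volume {x | ENNReal.ofReal t < h x} :=
    lintegral_mono_set Ioo_subset_Ioi_self
  refine le_trans ?_ hsub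
  apply setLIntegral_mono' measurableSet_Ioo
  intro t ht
  have ht1 : ENNReal.ofReal t < 1 := by
    rw [← ENNReal.ofReal_one]
    exact (ENNReal.ofReal_lt_ofReal_iff one_pos).mpr ht.2
  have ht0 : ENNReal.ofReal t ≠ 0 := by
    simpa using ht.1
  obtain ⟨x0, hx0⟩ := hfs _ ht1
  obtain ⟨y0, hy0⟩ := hgs _ ht1
  refine bm1d (measurableSet_lt measurable_const hf) (measurableSet_lt measurable_const hg)
    ⟨x0, hx0⟩ ⟨y0, hy0⟩ h0 h1 (measurableSet_lt measurable_const hh) ?_
  intro x hx y hy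
  simp only [mem_ofPred_eq] at hx hy ⊢
  refine lt_of_lt_of_le ?_ (H x y)
  have e : ENNReal.ofReal t = ENNReal.ofReal t ^ θ * ENNReal.ofReal t ^ (1 - θ) := by
    rw [← ENNReal.rpow_add _ _ ht0 ENNReal.ofReal_ne_top]
    simp
  rw [e]
  have hlt1 : ENNReal.ofReal t ^ θ < f x ^ θ := ENNReal.rpow_lt_rpow hx h0
  have hlt2 : ENNReal.ofReal t ^ (1 - θ) < g y ^ (1 - θ) := ENNReal.rpow_lt_rpow hy h1'
  exact ENNReal.mul_lt_mul hlt1 hlt2

end Vale.Agent.Lib.P227.PLC
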