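import Vale.Agent.Lib.P227.PLC.PL2

open MeasureTheory Set
open scoped ENNReal

namespace Vale.Agent.Lib.P227.PLC

/-- Weighted arithmetic-geometric mean inequality in `ℝ≥0∞`. -/
lemma ennreal_amgm (u v : ℝ≥0∞) {θ : ℝ} (h0 : 0 < θ) (h1 : θ < 1) :
    u ^ θ * v ^ (1 - θ) ≤ ENNReal.ofReal θ * u + ENNReal.ofReal (1 - θ) * v := by
  have h1' : 0 < 1 - θ := by linarith
  by_cases hu : u = ∞
  · have : ENNReal.ofReal θ * u = ∞ := by
      rw [hu]; exact ENNReal.mul_top (by simpa using h0)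
    rw [this]; simp
  by_cases hv : v = ∞
  · have : ENNReal.ofReal (1 - θ) * v = ∞ := by
      rw [hv]; exact ENNReal.mul_top (by simpa using h1')
    rw [this]; simp
  lift u to NNReal using hu
  lift v to NNReal using hv
  have key := NNReal.geom_mean_le_arith_mean2_weighted θ.toNNReal (1 - θ).toNNReal u v (by
    rw [← Real.toNNReal_add h0.le h1'.le]; simp)
  rw [Real.coe_toNNReal _ h0.le, Real.coe_toNNReal _ h1'.le] at key
  rw [← ENNReal.coe_rpow_of_nonneg _ h0.le, ← ENNReal.coe_rpow_of_nonneg _ h1'.le]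
  simp only [ENNReal.ofReal]
  exact_mod_cast key

/-- One-dimensional Prekopa-Leindler for bounded `f, g`. -/
lemma pl1d_bdd {f g h : ℝ → ℝ≥0∞} (hf : Measurable f) (hg : Measurable g) (hh : Measurable h)
    {k : ℝ≥0∞} (hk : k ≠ ∞) (hfk : ∀ x, f x ≤ k) (hgk : ∀ x, g x ≤ k)
    {θ : ℝ} (h0 : 0 < θ) (h1 : θ < 1)
    (H : ∀ x y, f x ^ θ * g y ^ (1 - θ) ≤ h (θ * x + (1 - θ) * y)) :
    (∫⁻ x, f x) ^ θ * (∫⁻ x, g x) ^ (1 - θ) ≤ ∫⁻ x, h x := by
  have h1' : 0 < 1 - θ := by linarith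
  set M := ⨆ x, f x with hM
  set N := ⨆ x, g x with hN
  have hMtop : M ≠ ∞ := ne_top_of_le_ne_top hk (iSup_le hfk)
  have hNtop : N ≠ ∞ := ne_top_of_le_ne_top hk (iSup_le hgk)
  by_cases hM0 : M = 0
  · have : ∀ x, f x = 0 := by
      intro x
      have : f x ≤ M := le_iSup f x
      rw [hM0] at this
      exact le_antisymm this bot_le
    simp [this, h0]
  by_cases hN0 : N = 0
  · have : ∀ x, g x = 0 := by
      intro x
      have : g x ≤ N := le_iSup g x
      rw [hN0] at this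
      exact le_antisymm this bot_le
    simp [this, h1']
  have hMi0 : M⁻¹ ≠ 0 := ENNReal.inv_ne_zero.mpr hMtop
  have hNi0 : N⁻¹ ≠ 0 := ENNReal.inv_ne_zero.mpr hNtop
  have hMit : M⁻¹ ≠ ∞ := ENNReal.inv_ne_top.mpr hM0
  have hNit : N⁻¹ ≠ ∞ := ENNReal.inv_ne_top.mpr hN0
  set c := (M⁻¹) ^ θ * (N⁻¹) ^ (1 - θ) with hc
  have hc0 : c ≠ 0 := by
    apply mul_ne_zero
    · simp [ENNReal.rpow_eq_zero_iff, hMi0, hMit, h0, h0.not_gt]
    · simp [ENNReal.rpow_eq_zero_iff, hNi0, hNit, h1', h1'.not_gt]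
  have hct : c ≠ ∞ := by
    apply ENNReal.mul_ne_top
    · exact ENNReal.rpow_ne_top_of_nonneg h0.le hMit
    · exact ENNReal.rpow_ne_top_of_nonneg h1'.le hNit
  have key := pl1d_normalized (f := fun x => M⁻¹ * f x) (g := fun x => N⁻¹ * g x)
    (h := fun x => c * h x) (hf.const_mul _) (hg.const_mul _) (hh.const_mul _)
    (by
      intro x
      have : f x ≤ M := le_iSup f x
      calc M⁻¹ * f x ≤ M⁻¹ * M := by gcongr
        _ = 1 := ENNReal.inv_mul_cancel hM0 hMtop)
    (by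
      intro x
      have : g x ≤ N := le_iSup g x
      calc N⁻¹ * g x ≤ N⁻¹ * N := by gcongr
        _ = 1 := ENNReal.inv_mul_cancel hN0 hNtop)
    (by
      intro r hr
      have hr1 : r * M < M := by
        calc r * M < 1 * M := by
              exact (ENNReal.mul_lt_mul_iff_left hM0 hMtop).mpr hr
          _ = M := one_mul _
      obtain ⟨x, hx⟩ := lt_iSup_iff.mp hr1
      refine ⟨x, ?_⟩
      calc r = M⁻¹ * (r * M) := by
            rw [mul_comm r, ← mul_assoc, ENNReal.inv_mul_cancel hM0 hMtop, one_mul]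
        _ < M⁻¹ * f x := (ENNReal.mul_lt_mul_iff_right hMi0 hMit).mpr hx)
    (by
      intro r hr
      have hr1 : r * N < N := by
        calc r * N < 1 * N := by
              exact (ENNReal.mul_lt_mul_iff_left hN0 hNtop).mpr hr
          _ = N := one_mul _
      obtain ⟨x, hx⟩ := lt_iSup_iff.mp hr1
      refine ⟨x, ?_⟩
      calc r = N⁻¹ * (r * N) := by
            rw [mul_comm r, ← mul_assoc, ENNReal.inv_mul_cancel hN0 hNtop, one_mul]
        _ < N⁻¹ * g x := (ENNReal.mul_lt_mul_iff_right hNi0 hNit).mpr hx)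
    h0 h1
    (by
      intro x y
      rw [ENNReal.mul_rpow_of_nonneg _ _ h0.le, ENNReal.mul_rpow_of_nonneg _ _ h1'.le]
      calc (M⁻¹) ^ θ * f x ^ θ * ((N⁻¹) ^ (1 - θ) * g y ^ (1 - θ))
          = c * (f x ^ θ * g y ^ (1 - θ)) := by rw [hc]; ring
        _ ≤ c * h (θ * x + (1 - θ) * y) := by gcongr; exact H x y)
  rw [lintegral_const_mul _ hf, lintegral_const_mul _ hg, lintegral_const_mul _ hh] at key
  set a := ∫⁻ x, f x
  set b := ∫⁻ x, g x
  have amgm : (M⁻¹ * a) ^ θ * (N⁻¹ * b) ^ (1 - θ)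
      ≤ ENNReal.ofReal θ * (M⁻¹ * a) + ENNReal.ofReal (1 - θ) * (N⁻¹ * b) :=
    ennreal_amgm _ _ h0 h1
  have e : (M⁻¹ * a) ^ θ * (N⁻¹ * b) ^ (1 - θ) = c * (a ^ θ * b ^ (1 - θ)) := by
    rw [ENNReal.mul_rpow_of_nonneg _ _ h0.le, ENNReal.mul_rpow_of_nonneg _ _ h1'.le, hc]
    ring
  rw [e] at amgm
  exact (ENNReal.mul_le_mul_iff_right hc0 hct).mp (amgm.trans key)

/-- One-dimensional Prekopa-Leindler inequality. -/
theorem pl1d {f g h : ℝ → ℝ≥0∞} (hf : Measurable f) (hg : Measurable g) (hh : Measurable h)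
    {θ : ℝ} (h0 : 0 < θ) (h1 : θ < 1)
    (H : ∀ x y, f x ^ θ * g y ^ (1 - θ) ≤ h (θ * x + (1 - θ) * y)) :
    (∫⁻ x, f x) ^ θ * (∫⁻ x, g x) ^ (1 - θ) ≤ ∫⁻ x, h x := by
  have h1' : 0 < 1 - θ := by linarith
  -- truncations
  let F : ℕ → ℝ → ℝ≥0∞ := fun n x => min (f x) n
  let G : ℕ → ℝ → ℝ≥0∞ := fun n x => min (g x) n
  have hFm : ∀ n, Measurable (F n) := fun n => hf.min measurable_const
  have hGm : ∀ n, Measurable (G n) := fun n => hg.min measurable_const
  have hFmono : Monotone F := by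
    intro m n hmn x
    exact min_le_min_left _ (by exact_mod_cast hmn)
  have hGmono : Monotone G := by
    intro m n hmn x
    exact min_le_min_left _ (by exact_mod_cast hmn)
  have hFlim : ∀ x, Filter.Tendsto (fun n => F n x) Filter.atTop (nhds (f x)) := by
    intro x
    have : Filter.Tendsto (fun n : ℕ => min (f x) (n : ℝ≥0∞)) Filter.atTop (nhds (min (f x) ∞)) :=
      tendsto_const_nhds.min ENNReal.tendsto_nat_nhds_top
    simpa using this
  have hGlim : ∀ x, Filter.Tendsto (fun n => G n x) Filter.atTop (nhds (g x)) := by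
    intro x
    have : Filter.Tendsto (fun n : ℕ => min (g x) (n : ℝ≥0∞)) Filter.atTop (nhds (min (g x) ∞)) :=
      tendsto_const_nhds.min ENNReal.tendsto_nat_nhds_top
    simpa using this
  have hFint : Filter.Tendsto (fun n => ∫⁻ x, F n x) Filter.atTop (nhds (∫⁻ x, f x)) :=
    lintegral_tendsto_of_tendsto_of_monotone (fun n => (hFm n).aemeasurable)
      (Filter.Eventually.of_forall fun x m n hmn => hFmono hmn x)
      (Filter.Eventually.of_forall hFlim)
  have hGint : Filter.Tendsto (fun n => ∫⁻ x, G n x) Filter.atTop (nhds (∫⁻ x, g x)) :=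
    lintegral_tendsto_of_tendsto_of_monotone (fun n => (hGm n).aemeasurable)
      (Filter.Eventually.of_forall fun x m n hmn => hGmono hmn x)
      (Filter.Eventually.of_forall hGlim)
  have hbdd : ∀ n, (∫⁻ x, F n x) ^ θ * (∫⁻ x, G n x) ^ (1 - θ) ≤ ∫⁻ x, h x := by
    intro n
    refine pl1d_bdd (k := n) (hFm n) (hGm n) hh (ENNReal.natCast_ne_top n)
      (fun x => min_le_right _ _) (fun x => min_le_right _ _) h0 h1 ?_
    intro x y
    refine le_trans ?_ (H x y)
    gcongr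
    · exact min_le_left _ _
    · exact min_le_left _ _
  refine ENNReal.mul_le_of_forall_lt ?_
  intro a' ha' b' hb'
  have t1 : Filter.Tendsto (fun n => (∫⁻ x, F n x) ^ θ) Filter.atTop (nhds ((∫⁻ x, f x) ^ θ)) :=
    (ENNReal.continuous_rpow_const.tendsto _).comp hFint
  have t2 : Filter.Tendsto (fun n => (∫⁻ x, G n x) ^ (1 - θ)) Filter.atTop
      (nhds ((∫⁻ x, g x) ^ (1 - θ))) :=
    (ENNReal.continuous_rpow_const.tendsto _).comp hGint
  obtain ⟨n, hn1, hn2⟩ := ((t1.eventually (lt_mem_nhds ha')).and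
    (t2.eventually (lt_mem_nhds hb'))).exists
  calc a' * b' ≤ (∫⁻ x, F n x) ^ θ * (∫⁻ x, G n x) ^ (1 - θ) := by
        gcongr
    _ ≤ ∫⁻ x, h x := hbdd n

/-- Prekopa-Leindler inequality on `Fin n → ℝ`. -/
theorem prekopa_leindler_fin : ∀ (n : ℕ) {f g h : (Fin n → ℝ) → ℝ≥0∞},
    Measurable f → Measurable g → Measurable h → ∀ {θ : ℝ}, 0 < θ → θ < 1 →
    (∀ x y, f x ^ θ * g y ^ (1 - θ) ≤ h (θ • x + (1 - θ) • y)) →
    (∫⁻ x, f x) ^ θ * (∫⁻ x, g x) ^ (1 - θ) ≤ ∫⁻ x, h x := by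
  intro n
  induction n with
  | zero =>
    intro f g h hf hg hh θ h0 h1 H
    have hu : (volume : Measure (Fin 0 → ℝ)) univ = 1 := by
      rw [volume_pi]; simp
    have e : ∀ F : (Fin 0 → ℝ) → ℝ≥0∞, ∫⁻ x, F x = F default := by
      intro F
      rw [lintegral_unique, hu, mul_one]
      exact congrArg F (Subsingleton.elim _ _)
    rw [e f, e g, e h]
    refine le_trans (H default default) (le_of_eq ?_)
    congr 1
    exact Subsingleton.elim _ _
  | succ n ih =>
    intro f g h hf hg hh θ h0 h1 H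
    set E := MeasurableEquiv.piFinSuccAbove (fun _ : Fin (n + 1) => ℝ) 0 with hE
    have mp : MeasurePreserving E.symm := (volume_preserving_piFinSuccAbove (fun _ => ℝ) 0).symm
    have red : ∀ F : (Fin (n + 1) → ℝ) → ℝ≥0∞, Measurable F →
        ∫⁻ x, F x = ∫⁻ t : ℝ, ∫⁻ y : Fin n → ℝ, F (E.symm (t, y)) := by
      intro F hF
      rw [← mp.lintegral_comp hF]
      rw [Measure.volume_eq_prod]
      exact lintegral_prod (fun a => F (E.symm a)) (hF.comp E.symm.measurable).aemeasurable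
    rw [red f hf, red g hg, red h hh]
    refine pl1d ?_ ?_ ?_ h0 h1 ?_
    · exact Measurable.lintegral_prod_right' (f := fun p : ℝ × (Fin n → ℝ) => f (E.symm p))
        (hf.comp E.symm.measurable)
    · exact Measurable.lintegral_prod_right' (f := fun p : ℝ × (Fin n → ℝ) => g (E.symm p))
        (hg.comp E.symm.measurable)
    · exact Measurable.lintegral_prod_right' (f := fun p : ℝ × (Fin n → ℝ) => h (E.symm p))
        (hh.comp E.symm.measurable)
    · intro s t
      refine ih ?_ ?_ ?_ h0 h1 ?_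
      · exact hf.comp (E.symm.measurable.comp measurable_prodMk_left)
      · exact hg.comp (E.symm.measurable.comp measurable_prodMk_left)
      · exact hh.comp (E.symm.measurable.comp measurable_prodMk_left)
      · intro y y'
        refine le_trans (H _ _) (le_of_eq ?_)
        congr 1
        ext i
        simp only [hE, MeasurableEquiv.piFinSuccAbove, Pi.add_apply, Pi.smul_apply, smul_eq_mul]
        refine Fin.cases ?_ (fun j => ?_) i
        · simp
        · simp

end Vale.Agent.Lib.P227.PLC
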